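import Vale.Agent.P254.Bdl.B1

/-! # P254/S, block EX: the smooth (C^{2,1}) Brenier map from the Gaussian to a regular log-concave measure.

Level `k` (entropic) version of the moment map chain `P254/MC`, with the Gaussian as source:
`(k+1) φ` is replaced by `k φ + gp`, `gp y = |y|²/2 + (n/2) log (2π)`. -/

open MeasureTheory

namespace Vale.Agent.P254.S.EX

open Vale.Agent.P227.M Vale.Agent.P227.M.MM

/-- the potential of the standard Gaussian -/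
noncomputable def gp {n : ℕ} (y : E n) : ℝ := ‖y‖ ^ 2 / 2 + n / 2 * Real.log (2 * Real.pi)

/-- `log ∫ exp (k ⟨x,y⟩ - k φ_k[c] y) dγ(y)` -/
noncomputable def QG {n : ℕ} (k : ℝ) (c : E n → ℝ) (x : E n) : ℝ :=
  logLap (fun y => k * phiK k c y + gp y) (k • x)

/-- the level-`k` map -/
noncomputable def TG {n : ℕ} (k : ℝ) (V c : E n → ℝ) (x : E n) : ℝ := (V x + QG k c x) / k

/-- the invariant class -/
structure ClG {n : ℕ} (a b m : ℝ) (c : E n → ℝ) : Prop where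
  reg : Reg c a b
  sc : SelfConc m c

/-- iterates of the level-`k` map, started at a quadratic -/
noncomputable def itG {n : ℕ} (k a : ℝ) (V : E n → ℝ) : ℕ → E n → ℝ
  | 0 => fun x => a / 2 * ‖x‖ ^ 2
  | i + 1 => TG k V (itG k a V i)

/-- EX2: invariance (one may take `a = √c₀`, `b = 1 + C₀`) -/
def StmtInvG : Prop := ∀ (n : ℕ), 0 < n → ∀ (V : E n → ℝ) (c₀ C₀ : ℝ), Reg V c₀ C₀ →
  ∃ a b m K₀ : ℝ, 0 < a ∧ a ≤ b ∧ 0 ≤ m ∧ 1 ≤ K₀ ∧ ∀ k : ℝ, K₀ ≤ k →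
    ClG a b m (fun x : E n => a / 2 * ‖x‖ ^ 2) ∧
    (∀ c : E n → ℝ, ClG a b m c → ClG a b m (TG k V c)) ∧
    (∀ c : E n → ℝ, ClG a b m c → Reg (phiK k c) b⁻¹ a⁻¹ ∧ SelfConc m (phiK k c))

/-- EX1: descent, with a bound of the gradient at `0` which does not depend on `k` -/
def StmtDescG : Prop := ∀ (n : ℕ), 0 < n → ∀ (V : E n → ℝ) (c₀ C₀ : ℝ), Reg V c₀ C₀ →
  (∫ x, Real.exp (-V x)) = 1 → ∀ a b : ℝ, 0 < a → a ≤ b → ∃ R : ℝ, ∀ k : ℝ, 1 ≤ k →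
  (∀ i, Reg (itG k a V i) a b) → (∀ i, Reg (phiK k (itG k a V i)) b⁻¹ a⁻¹) →
  ∀ ε > 0, ∃ i : ℕ, ‖gradient (phiK k (itG k a V i)) 0‖ ≤ R ∧
    ∀ F : E n → ℝ, LipschitzWith 1 F → (∀ x, |F x| ≤ 1) →
    |(∫ y, F (gradient (phiK k (itG k a V i)) y) * Real.exp (-gp y)) - ∫ x, F x * Real.exp (-V x)|
      ≤ Real.sqrt (n / (a * k)) + ε

/-- a function with explicit gradient and Hessian, pinched between `a` and `b`, the Hessian `M`-Lipschitz,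
value `0` at `0` and gradient at most `R` at `0` -/
structure C21g {E : Type*} [NormedAddCommGroup E] [InnerProductSpace ℝ E] [FiniteDimensional ℝ E]
    (a b M R : ℝ) (φ : E → ℝ) (G : E → E) (H : E → E →L[ℝ] E) : Prop where
  grad : ∀ y, HasGradientAt φ (G y) y
  hess : ∀ y, HasFDerivAt G (H y) y
  lower : ∀ y v, a * ‖v‖ ^ 2 ≤ inner ℝ (H y v) v
  upper : ∀ y v, inner ℝ (H y v) v ≤ b * ‖v‖ ^ 2
  lip : ∀ y y', ‖H y - H y'‖ ≤ M * ‖y - y'‖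
  zero : φ 0 = 0
  bdd : ‖G 0‖ ≤ R

/-- EX3: output of the level-`k` part -/
def StmtLKG : Prop := ∀ (n : ℕ), 0 < n → ∀ (V : E n → ℝ) (c₀ C₀ : ℝ), Reg V c₀ C₀ →
  (∫ x, Real.exp (-V x)) = 1 → ∃ a b M R : ℝ, 0 < a ∧ a ≤ b ∧ ∀ ε > 0,
  ∃ (φ : E n → ℝ) (G : E n → E n) (H : E n → E n →L[ℝ] E n), C21g a b M R φ G H ∧
    ∀ F : E n → ℝ, LipschitzWith 1 F → (∀ x, |F x| ≤ 1) →
      |(∫ y, F (G y) * Real.exp (-gp y)) - ∫ x, F x * Real.exp (-V x)| ≤ ε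

/-- EX4 = the block EX: the gradient map `G = ∇φ` from the Gaussian to `e^{-V}`, with the Monge-Ampere equation -/
def StmtEX : Prop := ∀ (n : ℕ), 0 < n → ∀ (V : E n → ℝ) (c₀ C₀ : ℝ), Reg V c₀ C₀ →
  (∫ x, Real.exp (-V x)) = 1 → ∃ (a b M R : ℝ) (φ : E n → ℝ) (G : E n → E n) (H : E n → E n →L[ℝ] E n),
    0 < a ∧ C21g a b M R φ G H ∧ ∀ z, V (G z) = gp z + Real.log (H z).det

end Vale.Agent.P254.S.EX
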